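import Vale.Agent.P233.H939.BMp
import Vale.Agent.P233.H825.Strassen

/-!
P233, stage 3b (helper939): the one step contraction plans `OS` of helper227, from `BMV` and
Strassen's theorem, hence from the literal `CD(K,n)`.
-/

set_option linter.all false

open MeasureTheory Set Metric ProbabilityTheory Filter Topology
open scoped ENNReal NNReal

universe u

namespace Vale.Agent.P233.H939.BM

open Vale.Agent.P242 Vale.Agent.P242.H124 Vale.Agent.P233.H227.Ch

variable {X : Type u} [MetricSpace X] [MeasurableSpace X] [BorelSpace X]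

theorem mV_closedBall_lt {m : Measure X} (hfin : ∀ (x : X) (r : ℝ), m (ball x r) < ∞) (K : ℝ)
    (p x : X) (R : ℝ) : mV m K p (closedBall x R) < ∞ := by
  rw [mV, withDensity_apply _ isClosed_closedBall.measurableSet]
  calc ∫⁻ y in closedBall x R, ENNReal.ofReal (VV K p y) ∂m
      ≤ ∫⁻ y in closedBall x R, ENNReal.ofReal (Real.exp (|K| * (dist x p + R) ^ 2 / 6)) ∂m := by
        apply setLIntegral_mono measurable_const
        intro y hy
        apply ENNReal.ofReal_le_ofReal
        apply Real.exp_le_exp.2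
        rw [mem_closedBall] at hy
        have h0 := dist_triangle y x p
        have h1 : dist y p ^ 2 ≤ (dist x p + R) ^ 2 :=
          pow_le_pow_left₀ dist_nonneg (by linarith only [hy, h0]) 2
        have h2 : K * dist y p ^ 2 ≤ |K| * (dist x p + R) ^ 2 :=
          mul_le_mul (le_abs_self K) h1 (by positivity) (abs_nonneg K)
        linarith only [h2]
    _ < ∞ := by
        rw [setLIntegral_const]
        refine ENNReal.mul_lt_top ENNReal.ofReal_lt_top ?_
        refine (measure_mono ?_).trans_lt (hfin x (R + 1))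
        exact closedBall_subset_ball (by linarith)

/-- one step contraction plans from the set inequality -/
theorem os_of_bmv [ProperSpace X] {m : Measure X} (hfin : ∀ (x : X) (r : ℝ), m (ball x r) < ∞)
    {K : ℝ} {n : ℕ} (h : BMV m n K) : OS m n K := by
  intro p t ht0 ht1 ν c R hν hνR
  have h1t : 0 < 1 - t := by linarith
  have hpow : 0 < (1 - t) ^ n := by positivity
  set Kc : Set X := closedBall p R with hKc
  have hKcomp : IsCompact Kc := isCompact_closedBall p R
  have hνfin : IsFiniteMeasure ν := by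
    constructor
    have h1 : ν univ ≤ ν Kc + ν Kcᶜ := by
      rw [← union_compl_self Kc]
      exact measure_union_le _ _
    rw [hνR, add_zero] at h1
    refine h1.trans_lt ((hν Kc).trans_lt ?_)
    rw [Measure.smul_apply]
    exact ENNReal.mul_lt_top ENNReal.coe_lt_top (mV_closedBall_lt hfin K p p R)
  set c' : ℝ≥0 := c * Real.toNNReal (((1 - t) ^ n)⁻¹) with hc'
  set S : Set (X × X) := {z | dist z.1 z.2 = t * dist z.1 p ∧ dist z.2 p = (1 - t) * dist z.1 p}
    with hS
  have hSc : IsClosed S :=
    (isClosed_eq (by fun_prop) (by fun_prop)).inter (isClosed_eq (by fun_prop) (by fun_prop))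
  have hLtop : (c' • mV m K p) Kc ≠ ⊤ := by
    rw [Measure.smul_apply]
    exact (ENNReal.mul_lt_top ENNReal.coe_lt_top (mV_closedBall_lt hfin K p p R)).ne
  have hall : ∀ A : Set X, A ⊆ Kc → IsCompact A →
      ν A ≤ (c' • mV m K p) {y | y ∈ Kc ∧ ∃ x ∈ A, (x, y) ∈ S} := by
    intro A hAK hA
    have h1 := h p t ht0 ht1 A hA
    have hset : {y | y ∈ Kc ∧ ∃ x ∈ A, (x, y) ∈ S} =
        {z | ∃ x ∈ A, dist x z = t * dist x p ∧ dist z p = (1 - t) * dist x p} := by
      ext y
      constructor
      · rintro ⟨-, x, hx, hxy⟩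
        exact ⟨x, hx, hxy⟩
      · rintro ⟨x, hx, h2, h3⟩
        refine ⟨?_, x, hx, h2, h3⟩
        have h4 := hAK hx
        rw [hKc, mem_closedBall] at h4 ⊢
        have h5 : 0 ≤ t * dist x p := by positivity
        linarith only [h3, h4, h5]
    rw [hset, Measure.smul_apply]
    refine (hν A).trans ?_
    rw [Measure.smul_apply]
    have e1 : (c' : ℝ≥0∞) = c * ENNReal.ofReal (((1 - t) ^ n)⁻¹) := by
      rw [hc', ENNReal.coe_mul, ENNReal.ofReal]
    have e2 : ENNReal.ofReal (((1 - t) ^ n)⁻¹) * ENNReal.ofReal ((1 - t) ^ n) = 1 := by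
      rw [← ENNReal.ofReal_mul (by positivity), inv_mul_cancel₀ hpow.ne', ENNReal.ofReal_one]
    calc (c : ℝ≥0∞) * mV m K p A
        = c * ENNReal.ofReal (((1 - t) ^ n)⁻¹) * (ENNReal.ofReal ((1 - t) ^ n) * mV m K p A) := by
          rw [mul_assoc, ← mul_assoc (ENNReal.ofReal _), e2, one_mul]
      _ ≤ c * ENNReal.ofReal (((1 - t) ^ n)⁻¹) *
          mV m K p {z | ∃ x ∈ A, dist x z = t * dist x p ∧ dist z p = (1 - t) * dist x p} := by
          gcongr
      _ = _ := by rw [← e1]; rfl
  obtain ⟨π, -, hπ1, hπ2, hπ3⟩ :=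
    H825.Str.strassen ν hKcomp hνR (c' • mV m K p) hKcomp hLtop S hSc hall
  refine ⟨π, hπ1, ?_, hπ2.trans Measure.restrict_le_self⟩
  filter_upwards [hπ3] with z hz using hz.1

/-- **one step contraction plans** of a proper `CD(K,n)` space -/
theorem os [ProperSpace X] {m : Measure X} [m.IsOpenPosMeasure]
    (hfin : ∀ (x : X) (r : ℝ), m (ball x r) < ∞)
    {K : ℝ} {n : ℕ} (hCD : IsCD K n m) (hn : 1 < n) : OS m n K :=
  os_of_bmv hfin (bmv hfin hCD hn)

end Vale.Agent.P233.H939.BM
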