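import Vale.Agent.P233.CD.If3b
import Vale.Agent.P233.H939.OneStep

/-!
P233, stage 3b (helper939): the blocks `Blk_BMp` and `Blk_OS` of `CD/If3b.lean` together (one step
contraction plans directly from the literal `CD(K,n)`), and the assembly of (3b) from the four
remaining blocks.
-/

set_option linter.all false

open MeasureTheory Filter Topology Set Metric
open scoped ENNReal NNReal MeasureTheory

universe u

namespace Vale.Agent.P233.CD

open Vale.Agent.P233.RA Vale.Agent.P233.H227.Ch

/-- one step contraction plans from the hypotheses of (3b) -/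
theorem os_of_hyp {M : Type u} [MetricSpace M] [CompleteSpace M] [SecondCountableTopology M]
    [MeasurableSpace M] [BorelSpace M] {m : Measure M} {n : ℕ} {K : ℝ} (h : Hyp m n K)
    (g : RG.GeoN m n) : OS m n K := by
  have := g.full
  have := g.geo.proper
  exact H939.BM.os g.fin h.rcd.cd h.two_le

theorem bmv_of_hyp {M : Type u} [MetricSpace M] [CompleteSpace M] [SecondCountableTopology M]
    [MeasurableSpace M] [BorelSpace M] {m : Measure M} {n : ℕ} {K : ℝ} (h : Hyp m n K)
    (g : RG.GeoN m n) : BMV m n K := by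
  have := g.full
  exact H939.BM.bmv g.fin h.rcd.cd h.two_le

/-- (3b) from the volume block, `Lc`, `S2l` and Theorem N -/
theorem blk_3b_of4 (hV : Blk_Vol.{u}) (hL : Blk_Lc.{u}) (hS : Blk_S2l.{u}) (hN : Blk_N2.{u}) :
    Blk_3b.{u} := by
  intro M _ _ _ _ _ n K hn hfull hR
  have h : Hyp (μH[(n : ℝ)] : Measure M) n K := ⟨hn, rfl, hfull, hR⟩
  obtain ⟨g, θ, t⟩ := hV M _ n K h
  have q := quadr_of hR
  have o := os_of_hyp h g
  obtain ⟨l1, l2⟩ := hL M _ n K hn g q o
  have s := hS M _ n K hn g o
  exact H131.Z.T_of_S (H131.Z.S_isRCD_of q (H131.Z.growth_sq g.growth) s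
    (hN M _ n K θ hn g t q s l1 l2))

end Vale.Agent.P233.CD
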