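import Vale.Agent.P233.H939.Energy
import Vale.Agent.P233.H165.TailM

/-! P233, row A5en (helper939): field `LevU.en` with all inputs discharged (tails with arbitrary
exponential rate, from the weighted estimates of helper165). -/

set_option linter.all false

open MeasureTheory Filter Topology Set
open scoped ENNReal NNReal

namespace Vale.Agent.P233.H939

open Vale.Agent.P233.H165

section

variable {M : Type*} [MeasurableSpace M] {m : Measure M} {C : Calc m}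
variable {ε : ℝ} {a l q q' Q : M →ₘ[m] ℝ} {φ u : ℝ → M →ₘ[m] ℝ} {C₀ Λ K A' : ℝ}
  {P : ℝ → (M →ₘ[m] ℝ) → (M →ₘ[m] ℝ)}
variable (hC : IsDir C) (hP : Heat C K P) (hF : Fam C P ε a l φ u)
  (hT : TailData C a l q q' C₀ Λ) (hQ : Q ∈ C.A) (hQΓ : ∀ᵐ x ∂m, C.Γ Q Q x ≤ 1)
  (hQa : ∀ᵐ x ∂m, a x ≠ 0 → A' ≤ Q x)
include hC hP hF hT hQ hQΓ hQa

/-- weighted estimate with an arbitrary level `A'` -/
theorem g_weight0 : I (wt ε⁻¹ Q * gm ε u 0 ^ 2) ≤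
    ε⁻¹ ^ 2 * Real.exp (2 * C₀ * ε⁻¹) * (4 * (Real.exp (-(A' * ε⁻¹)) * I (a ^ 2))) := by
  have hε := hF.pair.hε
  have hi : 0 < ε⁻¹ := inv_pos.2 hε
  have hw := wt_top hC ε⁻¹ hQ
  have hu0 : MemLp (u 0) 2 m := testI_L2 hC (hF.pair.u_mem 0 ⟨le_rfl, zero_le_one⟩)
  have hg0 : MemLp (gm ε u 0) 2 m := testI_L2 hC (hF.pair.g_mem 0 ⟨le_rfl, zero_le_one⟩)
  have ha := hT.a2
  have hε2 : 0 < ε ^ 2 := pow_pos hε 2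
  have hlb : ε ^ 2 * ε⁻¹ ^ 2 ≤ 1 := by
    rw [← mul_pow, mul_inv_cancel₀ hε.ne']; norm_num
  have s1 : I (wt ε⁻¹ Q * u 0 ^ 2) ≤ 4 * I (wt ε⁻¹ Q * a ^ 2) := by
    rw [hF.init]
    have e1 := res_weight hC hε2 hlb hQ hQΓ (hC.J_mem2 hε2 ha)
    have e2 := res_weight hC hε2 hlb hQ hQΓ ha
    linarith
  have s2 : I (wt ε⁻¹ Q * a ^ 2) ≤ Real.exp (-(A' * ε⁻¹)) * I (a ^ 2) := by
    rw [← I_smul]
    refine I_mono (mem_mul_top hw (mem_sq ha)) (mem_smul _ (mem_sq ha)) ?_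
    rw [le_iff_ae]
    filter_upwards [mul_ae (wt ε⁻¹ Q) (a ^ 2), sq_ae a, wt_ae ε⁻¹ Q,
      smul_ae (a ^ 2) (Real.exp (-(A' * ε⁻¹))), hQa] with x e1 e2 e3 e4 e5
    rw [e1, e4, e2, e3]
    by_cases hx : a x = 0
    · rw [hx]; simp
    · have h1 := e5 hx
      have h2 : -(ε⁻¹ * Q x) ≤ -(A' * ε⁻¹) := by nlinarith
      have h3 := Real.exp_le_exp.2 h2
      exact mul_le_mul_of_nonneg_right h3 (sq_nonneg _)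
  have s3 : I (wt ε⁻¹ Q * gm ε u 0 ^ 2) ≤
      (ε⁻¹ ^ 2 * Real.exp (2 * C₀ * ε⁻¹)) * I (wt ε⁻¹ Q * u 0 ^ 2) := by
    rw [← I_smul]
    refine I_mono (mem_mul_top hw (mem_sq hg0)) (mem_smul _ (mem_mul_top hw (mem_sq hu0))) ?_
    rw [le_iff_ae]
    filter_upwards [mul_ae (wt ε⁻¹ Q) (gm ε u 0 ^ 2), sq_ae (gm ε u 0), wt_ae ε⁻¹ Q,
      smul_ae (wt ε⁻¹ Q * u 0 ^ 2) (ε⁻¹ ^ 2 * Real.exp (2 * C₀ * ε⁻¹)),
      mul_ae (wt ε⁻¹ Q) (u 0 ^ 2), sq_ae (u 0), Fam.u0_bd hC hP hF hT, gm_ae ε u 0]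
      with x e1 e2 e3 e4 e5 e6 e7 e8
    rw [e1, e4, e2, e5, e6]
    have hw0 : 0 < wt ε⁻¹ Q x := by rw [e3]; exact Real.exp_pos _
    have hx0 : 0 ≤ -(ε⁻¹ * u 0 x) := by nlinarith [e7.2]
    have hxX : -(ε⁻¹ * u 0 x) ≤ C₀ * ε⁻¹ := by nlinarith [e7.1]
    have h1 := exp_sub_one_le hx0 hxX
    rw [← e8] at h1
    have h0 : 0 ≤ gm ε u 0 x := by rw [e8]; linarith [Real.one_le_exp hx0]
    have h2 : gm ε u 0 x ^ 2 ≤ (-(ε⁻¹ * u 0 x) * Real.exp (C₀ * ε⁻¹)) ^ 2 := by gcongr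
    have h3 : (-(ε⁻¹ * u 0 x) * Real.exp (C₀ * ε⁻¹)) ^ 2 =
        ε⁻¹ ^ 2 * Real.exp (2 * C₀ * ε⁻¹) * u 0 x ^ 2 := by
      rw [mul_pow, neg_sq, mul_pow, ← Real.exp_nat_mul]
      have : ((2:ℕ):ℝ) * (C₀ * ε⁻¹) = 2 * C₀ * ε⁻¹ := by push_cast; ring
      rw [this]; ring
    rw [h3] at h2
    nlinarith [mul_nonneg hw0.le (sub_nonneg.2 h2)]
  have hp : 0 ≤ ε⁻¹ ^ 2 * Real.exp (2 * C₀ * ε⁻¹) := by positivity
  calc _ ≤ (ε⁻¹ ^ 2 * Real.exp (2 * C₀ * ε⁻¹)) * I (wt ε⁻¹ Q * u 0 ^ 2) := s3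
    _ ≤ (ε⁻¹ ^ 2 * Real.exp (2 * C₀ * ε⁻¹)) * (4 * I (wt ε⁻¹ Q * a ^ 2)) :=
        mul_le_mul_of_nonneg_left s1 hp
    _ ≤ _ := by gcongr

theorem g_weight {t : ℝ} (ht : t ∈ Icc (0:ℝ) 1) :
    I (wt ε⁻¹ Q * gm ε u t ^ 2) ≤ 8 * Real.exp ((2 * C₀ + 2 - A') * ε⁻¹) * I (a ^ 2) := by
  have hε := hF.pair.hε
  have hi : 0 < ε⁻¹ := inv_pos.2 hε
  obtain ⟨h1, h0, h2⟩ := Fam.g_mono hC hP hF hT ht
  have h3 : 0 ≤ ε * t / 2 := by have := ht.1; positivity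
  have h4 := heat_weight hC hP (β := ε⁻¹) hQ hQΓ h0 h3
  rw [← h2] at h4
  have h5 := g_weight0 hC hP hF hT hQ hQΓ hQa
  have h6 : ε⁻¹ ^ 2 / 2 * (ε * t / 2) ≤ ε⁻¹ := by
    have e : ε⁻¹ ^ 2 / 2 * (ε * t / 2) = ε⁻¹ * t / 4 := by field_simp; ring
    rw [e]
    have := ht.2
    nlinarith
  have h7 := sq_le_two_exp (x := ε⁻¹) hi.le
  have hI := I_sq_nonneg a
  have hX : 0 ≤ I (wt ε⁻¹ Q * gm ε u 0 ^ 2) := by
    rw [I_wt_eq]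
    exact integral_nonneg fun x => by positivity
  calc I (wt ε⁻¹ Q * gm ε u t ^ 2) ≤ Real.exp ε⁻¹ * I (wt ε⁻¹ Q * gm ε u 0 ^ 2) :=
        h4.trans (mul_le_mul_of_nonneg_right (Real.exp_le_exp.2 h6) hX)
    _ ≤ Real.exp ε⁻¹ * (ε⁻¹ ^ 2 * Real.exp (2 * C₀ * ε⁻¹) *
          (4 * (Real.exp (-(A' * ε⁻¹)) * I (a ^ 2)))) := by gcongr
    _ ≤ Real.exp ε⁻¹ * ((2 * Real.exp ε⁻¹) * Real.exp (2 * C₀ * ε⁻¹) *
          (4 * (Real.exp (-(A' * ε⁻¹)) * I (a ^ 2)))) := by gcongr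
    _ = 8 * (Real.exp ε⁻¹ * Real.exp ε⁻¹ * Real.exp (2 * C₀ * ε⁻¹) *
          Real.exp (-(A' * ε⁻¹))) * I (a ^ 2) := by ring
    _ = 8 * Real.exp ((2 * C₀ + 2 - A') * ε⁻¹) * I (a ^ 2) := by
        rw [← Real.exp_add, ← Real.exp_add, ← Real.exp_add]
        congr 3; ring

/-- tail of `g - 1` with arbitrary exponential rate -/
theorem g_tail {t : ℝ} (ht : t ∈ Icc (0:ℝ) 1) :
    ∫ x in (pset Q)ᶜ, gm ε u t x ^ 2 ∂m ≤ 8 * Real.exp ((2 * C₀ + 2 - A') * ε⁻¹) * I (a ^ 2) :=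
  (compl_le_wt hC (inv_pos.2 hF.pair.hε).le hQ (Fam.g_mono hC hP hF hT ht).1).trans
    (g_weight hC hP hF hT hQ hQΓ hQa ht)

end

section metric

universe v

variable {M : Type v} [MetricSpace M] [SecondCountableTopology M] [MeasurableSpace M] [BorelSpace M]
  {m : Measure M}

/-- Tails of `g = exp (-u/ε)` with arbitrary exponential rate `A`, uniformly in `ε ≤ 1`, `l`. -/
theorem fam_tail_rate {K N : ℝ} {P : ℝ → (M →ₘ[m] ℝ) → (M →ₘ[m] ℝ)} (hS : Std m K N)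
    (hP : Heat (sob m) K P) (p : M) {s₀ C₀ : ℝ} (hs : 0 < s₀) (hC : 0 ≤ C₀) (A : ℝ) :
    ∃ R : ℝ, ∀ (ε : ℝ) (l : M →ₘ[m] ℝ), l ∈ (sob m).TestI → ∀ φ u,
      Fam (sob m) P ε (cl m (zr p s₀ C₀ 0)) l φ u → ∀ t ∈ Icc (0:ℝ) 1,
      ∫ x in (Metric.ball p R)ᶜ, (ex (-(ε⁻¹ • u t)) - 1 : M →ₘ[m] ℝ) x ^ 2 ∂m
        ≤ 8 * I (cl m (zr p s₀ C₀ 0) ^ 2) * Real.exp (-A / ε) := by
  have hτ : 0 < 0 + s₀ := by linarith
  set R := Real.sqrt (2 * C₀ * s₀) + (2 * C₀ + 2 + A) with hR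
  refine ⟨R, fun ε l hl φ u hF t ht => ?_⟩
  obtain ⟨hl2, Λ, hΛ, hlΛ⟩ := testI_bdd hS hl
  have hT := tailData hS p (r := 0) hs hC hl2 hΛ hlΛ
  have hQa : ∀ᵐ x ∂m, cl m (zr p s₀ C₀ 0) x ≠ 0 → 2 * C₀ + 2 + A ≤ cl m (tent p R) x := by
    filter_upwards [H599.zr_cl_ae (m := m) p s₀ C₀ 0, tent_ae (m := m) p R] with x e1 e2 h
    rw [e1] at h
    rw [e2]
    have h1 : x ∈ Metric.ball p (Real.sqrt (2 * C₀ * (0 + s₀))) := by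
      by_contra hx
      exact h (H599.zr_zero_outside hτ hC le_rfl hx)
    rw [Metric.mem_ball, dist_comm, zero_add] at h1
    refine le_max_of_le_left ?_
    rw [hR]
    linarith
  have h := g_tail (std_dir hS) hP hF hT (tent_A hS.hfin p R) (tent_Γ hS.hfin p R) hQa ht
  rw [compl_tent] at h
  refine h.trans_eq ?_
  have e : (2 * C₀ + 2 - (2 * C₀ + 2 + A)) * ε⁻¹ = -A / ε := by rw [div_eq_mul_inv]; ring
  rw [e]; ring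

/-- Field `LevU.en` (row A5en): `D` is the constant of `LevU.lip`. The final density does not
matter. -/
theorem levU_en {K N : ℝ} {P : ℝ → (M →ₘ[m] ℝ) → (M →ₘ[m] ℝ)} (hS : Std m K N)
    (hP : Heat (sob m) K P) (p : M) {s₀ C₀ : ℝ} (hs : 0 < s₀) (hC : 0 ≤ C₀) (D : ℝ) :
    ∃ D' : ℝ → ℝ, ∀ (ε : ℝ) (l : M →ₘ[m] ℝ), ε ≤ 1 → l ∈ (sob m).TestI → ∀ φ u,
      Fam (sob m) P ε (cl m (zr p s₀ C₀ 0)) l φ u →
      (∀ t ∈ Icc (0 : ℝ) 1, ∀ᵐ x ∂m, (sob m).Γ (u t) (u t) x ≤ D ^ 2) →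
      ∀ s ∈ Ioc (0 : ℝ) 1, ∀ t ∈ Icc s 1, I ((sob m).Γ (u t) (u t)) ≤ D' s := by
  obtain ⟨R, hR⟩ := fam_tail_rate hS hP p hs hC (2 * C₀ + 2)
  set a := cl m (zr p s₀ C₀ 0) with ha
  refine ⟨fun s => D ^ 2 * (m (Metric.ball p (R + 1))).toReal
    + (4 / s * (√(I (a ^ 2)) * √(8 * I (a ^ 2))) + 4 * (8 * I (a ^ 2))), ?_⟩
  intro ε l hε1 hl φ u hF hlip
  have hG := isGamma_sob hS.hfin hS.rcd.quadratic hS.rcd.sobolev_to_lipschitz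
  have hD := hG.toIsDir
  obtain ⟨hl2, Λ, hΛ, hlΛ⟩ := testI_bdd hS hl
  have hT := tailData hS p (r := 0) hs hC hl2 hΛ hlΛ
  exact en_of_tail hD hS.hfin hP hT.a2 p (fun t ht => hG.tI_A (hF.pair.u_mem t ht)) hF hε1
    (fun t ht => Fam.u_bd hD hP hF hT ht) hlip (fun t ht => hR ε l hl φ u hF t ht)

end metric

end Vale.Agent.P233.H939
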