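import Vale.Agent.P242.H124.Contr

/-!
P233, stage 3 (helper939): the Brunn-Minkowski inequality from the literal `CD(K,N)`
(`Vale.Agent.P242.IsCD`), for two Borel sets and for a compact set and a point.
-/

set_option linter.all false

open MeasureTheory Set Metric ProbabilityTheory Filter Topology
open scoped ENNReal

universe u

namespace Vale.Agent.P233.H939.BM

open Vale.Agent.P242 Vale.Agent.P242.H124

section

variable {X : Type u} [MetricSpace X] [CompleteSpace X] [SecondCountableTopology X]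
  [MeasurableSpace X] [BorelSpace X]

/-- the Brunn-Minkowski inequality of a `CD(K,N)` space -/
theorem brunn_minkowski {m : Measure X} [SigmaFinite m] {K N : ℝ}
    (hCD : IsCD K N m) (hN : 1 < N) {A₀ A₁ : Set X} (hA₀ : MeasurableSet A₀)
    (hA₁ : MeasurableSet A₁) {x : X} {R : ℝ} (hs0 : A₀ ⊆ ball x R) (hs1 : A₁ ⊆ ball x R)
    (h0 : m A₀ ≠ 0) (h1 : m A₁ ≠ 0) (h0' : m A₀ ≠ ∞) (h1' : m A₁ ≠ ∞)
    {t κ : ℝ} (ht0 : 0 < t) (ht1 : t < 1) (hκ : 0 < κ) {c₀ c₁ : ℝ≥0∞}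
    (hc₀ : ∀ x ∈ A₀, ∀ y ∈ A₁, c₀ ≤ tauCoeff K N (1 - t) (dist x y))
    (hc₁ : ∀ x ∈ A₀, ∀ y ∈ A₁, c₁ ≤ tauCoeff K N t (dist x y)) :
    c₀ * m A₀ ^ (1 / N) + c₁ * m A₁ ^ (1 / N) ≤ m (midSet A₀ A₁ t κ) ^ (1 / N) := by
  have hN0 : 0 < N := by linarith only [hN]
  have hP0 : IsP2 m (unif m A₀) := unif_isP2 hs0 h0 h0'
  have hP1 : IsP2 m (unif m A₁) := unif_isP2 hs1 h1 h1'
  obtain ⟨q, Γ, ⟨hqc, hqo⟩, hΓ0, hΓ1, hΓ, hΓP, hconv⟩ := hCD _ _ hP0 hP1
  have hprob0 : IsProbabilityMeasure (unif m A₀) := hP0.1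
  have hprobq : IsProbabilityMeasure q := hqc.isProb
  have htI : t ∈ Icc (0 : ℝ) 1 := ⟨ht0.le, ht1.le⟩
  have hprobt : IsProbabilityMeasure (Γ t) := (hΓP t htI).1
  have hq0 : ∀ᵐ z ∂q, z.1 ∈ A₀ := by
    have h1 : ∀ᵐ y ∂(q.map Prod.fst), y ∈ A₀ := by
      rw [hqc.1]
      exact unif_compl hA₀
    exact ae_of_ae_map measurable_fst.aemeasurable h1
  have hq1 : ∀ᵐ z ∂q, z.2 ∈ A₁ := by
    have h1 : ∀ᵐ y ∂(q.map Prod.snd), y ∈ A₁ := by
      rw [hqc.2]
      exact unif_compl hA₁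
    exact ae_of_ae_map measurable_snd.aemeasurable h1
  have hqd : ∀ᵐ z ∂q, dist z.1 z.2 ≤ 2 * R := by
    filter_upwards [hq0, hq1] with z h2 h3
    have h4 := hs0 h2
    have h5 := hs1 h3
    rw [mem_ball] at h4 h5
    have h6 := dist_triangle_right z.1 z.2 x
    linarith only [h4, h5, h6]
  have hWfin : W2sq (unif m A₀) (unif m A₁) ≠ ∞ := by
    rw [← hqo]
    unfold transportCost
    have h2 : ∫⁻ z, ENNReal.ofReal (dist z.1 z.2 ^ 2) ∂q ≤
        ∫⁻ z, ENNReal.ofReal ((2 * R) ^ 2) ∂q := by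
      apply lintegral_mono_ae
      filter_upwards [hqd] with z hz
      apply ENNReal.ofReal_le_ofReal
      exact pow_le_pow_left₀ dist_nonneg hz 2
    rw [lintegral_const, measure_univ, mul_one] at h2
    exact (h2.trans_lt ENNReal.ofReal_lt_top).ne
  set W := midSet A₀ A₁ t κ with hW
  have hWm : MeasurableSet W := (isOpen_midSet _ _ _ _).measurableSet
  have hconc : Γ t Wᶜ = 0 := by
    have e0 := hΓ 0 ⟨le_refl _, zero_le_one⟩ t htI
    have e1 := hΓ t htI 1 ⟨zero_le_one, le_refl _⟩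
    rw [hΓ0, hΓ1] at e0 e1
    refine midpoint_conc ht0 ht1 hκ hWfin rfl ?_ ?_ hA₀ hA₁ (unif_compl hA₀) (unif_compl hA₁)
    · rw [e0]
      congr 2
      ring
    · rw [e1]
      congr 2
      ring
  have hd0 : ∀ᵐ z ∂q, (unif m A₀).rnDeriv m z.1 = (m A₀)⁻¹ := by
    have h4 : ∀ᵐ y ∂(q.map Prod.fst), (unif m A₀).rnDeriv m y = (m A₀)⁻¹ := by
      rw [hqc.1]
      exact unif_deriv hA₀ h0 h0'
    exact ae_of_ae_map measurable_fst.aemeasurable h4
  have hd1 : ∀ᵐ z ∂q, (unif m A₁).rnDeriv m z.2 = (m A₁)⁻¹ := by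
    have h4 : ∀ᵐ y ∂(q.map Prod.snd), (unif m A₁).rnDeriv m y = (m A₁)⁻¹ := by
      rw [hqc.2]
      exact unif_deriv hA₁ h1 h1'
    exact ae_of_ae_map measurable_snd.aemeasurable h4
  have hlow : c₀ * m A₀ ^ (1 / N) + c₁ * m A₁ ^ (1 / N) ≤
      ∫⁻ z, ((Γ t).rnDeriv m z) ^ (1 - 1 / N) ∂m := by
    refine le_trans ?_ (hconv t htI N le_rfl)
    calc c₀ * m A₀ ^ (1 / N) + c₁ * m A₁ ^ (1 / N)
        = ∫⁻ _, (c₀ * m A₀ ^ (1 / N) + c₁ * m A₁ ^ (1 / N)) ∂q := by
          rw [lintegral_const, measure_univ, mul_one]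
      _ ≤ _ := by
          apply lintegral_mono_ae
          filter_upwards [hq0, hq1, hd0, hd1] with z g0 g1 g2 g3
          have e : ∀ a : ℝ≥0∞, (a⁻¹) ^ (-1 / N) = a ^ (1 / N) := by
            intro a
            rw [neg_div, ENNReal.rpow_neg, ← ENNReal.inv_rpow, inv_inv]
          rw [g2, g3, e, e]
          gcongr
          · exact hc₀ _ g0 _ g1
          · exact hc₁ _ g0 _ g1
  exact hlow.trans (entropy_le hN hWm hconc)

/-- exact `t`-intermediate points between the points of `A` and the pole `p` -/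
def Zt (t : ℝ) (A : Set X) (p : X) : Set X :=
  {z | ∃ x ∈ A, dist x z = t * dist x p ∧ dist z p = (1 - t) * dist x p}

omit [CompleteSpace X] [SecondCountableTopology X] [MeasurableSpace X] [BorelSpace X] in
/-- approximate intermediate points of a compact set and a point converge to exact ones -/
theorem iInter_midSet {A : Set X} (hA : IsCompact A) (p : X) (t : ℝ) {κ : ℕ → ℝ}
    (hκ : Tendsto κ atTop (𝓝 0)) :
    (⋂ k, midSet A (ball p (κ k)) t (κ k)) ⊆ Zt t A p := by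
  intro z hz
  rw [mem_iInter] at hz
  choose x hx y hy h1 h2 using hz
  obtain ⟨x', hx', φ, hφ, hlim⟩ := hA.tendsto_subseq hx
  have hyp : Tendsto y atTop (𝓝 p) := by
    rw [tendsto_iff_dist_tendsto_zero]
    exact squeeze_zero (fun _ => dist_nonneg) (fun k => (mem_ball.1 (hy k)).le) hκ
  have hy' : Tendsto (y ∘ φ) atTop (𝓝 p) := hyp.comp hφ.tendsto_atTop
  have hκ' : Tendsto (κ ∘ φ) atTop (𝓝 0) := hκ.comp hφ.tendsto_atTop
  refine ⟨x', hx', ?_, ?_⟩
  · have l1 : Tendsto (fun k => |dist (x (φ k)) z - t * dist (x (φ k)) (y (φ k))|) atTop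
        (𝓝 |dist x' z - t * dist x' p|) :=
      ((hlim.dist tendsto_const_nhds).sub ((hlim.dist hy').const_mul t)).abs
    have l2 : |dist x' z - t * dist x' p| ≤ 0 :=
      le_of_tendsto_of_tendsto' l1 hκ' fun k => (h1 (φ k)).le
    have l3 := abs_eq_zero.1 (le_antisymm l2 (abs_nonneg _))
    linarith only [l3]
  · have l1 : Tendsto (fun k => |dist z (y (φ k)) - (1 - t) * dist (x (φ k)) (y (φ k))|) atTop
        (𝓝 |dist z p - (1 - t) * dist x' p|) :=
      ((tendsto_const_nhds.dist hy').sub ((hlim.dist hy').const_mul (1 - t))).abs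
    have l2 : |dist z p - (1 - t) * dist x' p| ≤ 0 :=
      le_of_tendsto_of_tendsto' l1 hκ' fun k => (h2 (φ k)).le
    have l3 := abs_eq_zero.1 (le_antisymm l2 (abs_nonneg _))
    linarith only [l3]

omit [CompleteSpace X] [SecondCountableTopology X] [MeasurableSpace X] [BorelSpace X] in
theorem isClosed_Zt {A : Set X} (hA : IsCompact A) (p : X) (t : ℝ) : IsClosed (Zt t A p) := by
  rw [← isSeqClosed_iff_isClosed]
  intro z z' hz hlim
  choose x hx h1 h2 using hz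
  obtain ⟨x', hx', φ, hφ, hl⟩ := hA.tendsto_subseq hx
  have hz' : Tendsto (z ∘ φ) atTop (𝓝 z') := hlim.comp hφ.tendsto_atTop
  refine ⟨x', hx', ?_, ?_⟩
  · have l1 : Tendsto (fun k => dist (x (φ k)) (z (φ k))) atTop (𝓝 (dist x' z')) := hl.dist hz'
    have l2 : Tendsto (fun k => t * dist (x (φ k)) p) atTop (𝓝 (t * dist x' p)) :=
      (hl.dist tendsto_const_nhds).const_mul t
    exact tendsto_nhds_unique (l1.congr fun k => h1 (φ k)) l2
  · have l1 : Tendsto (fun k => dist (z (φ k)) p) atTop (𝓝 (dist z' p)) :=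
      hz'.dist tendsto_const_nhds
    have l2 : Tendsto (fun k => (1 - t) * dist (x (φ k)) p) atTop (𝓝 ((1 - t) * dist x' p)) :=
      (hl.dist tendsto_const_nhds).const_mul (1 - t)
    exact tendsto_nhds_unique (l1.congr fun k => h2 (φ k)) l2

omit [CompleteSpace X] [SecondCountableTopology X] [MeasurableSpace X] [BorelSpace X] in
theorem midSet_mono {A B B' : Set X} {t κ κ' : ℝ} (hB : B ⊆ B') (hκ : κ ≤ κ') :
    midSet A B t κ ⊆ midSet A B' t κ' := by
  rintro z ⟨x, hx, y, hy, h1, h2⟩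
  exact ⟨x, hx, y, hB hy, h1.trans_le hκ, h2.trans_le hκ⟩

omit [CompleteSpace X] [SecondCountableTopology X] [MeasurableSpace X] [BorelSpace X] in
theorem midSet_bdd {A : Set X} {p : X} {R t κ : ℝ} (ht0 : 0 < t) (ht1 : t < 1)
    (hA : A ⊆ ball p R) (hκ0 : 0 < κ) (hκ : κ ≤ 1) :
    midSet A (ball p κ) t κ ⊆ ball p (2 * R + 3) := by
  rintro z ⟨x, hx, y, hy, h1, h2⟩
  have h3 := hA hx
  rw [mem_ball] at h3 hy ⊢
  have h4 := (abs_lt.1 h1).2
  have h5 := dist_triangle z x p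
  have h6 := dist_triangle_right x y p
  rw [dist_comm z x] at h5
  have h7 : t * dist x y ≤ 1 * dist x y := mul_le_mul_of_nonneg_right ht1.le dist_nonneg
  linarith only [h3, hy, h4, h5, h6, h7, hκ]

/-- the Brunn-Minkowski inequality for a compact set and a point -/
theorem bm_pole {m : Measure X} [m.IsOpenPosMeasure] (hfin : ∀ (x : X) (r : ℝ), m (ball x r) < ∞)
    {K N : ℝ} (hCD : IsCD K N m) (hN : 1 < N) {A : Set X} (hA : IsCompact A) (p : X)
    {t : ℝ} (ht0 : 0 < t) (ht1 : t < 1) {c : ℝ≥0∞} {κ₀ : ℝ} (hκ₀ : 0 < κ₀)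
    (hc : ∀ x ∈ A, ∀ y ∈ ball p κ₀, c ≤ tauCoeff K N (1 - t) (dist x y)) :
    c ^ N * m A ≤ m (Zt t A p) := by
  have hN0 : 0 < N := by linarith only [hN]
  have hsig : SigmaFinite m := by
    have : IsLocallyFiniteMeasure m := ⟨fun y => ⟨ball y 1, ball_mem_nhds y one_pos, hfin y 1⟩⟩
    infer_instance
  by_cases hA0 : m A = 0
  · rw [hA0, mul_zero]
    exact zero_le
  obtain ⟨R, hR⟩ : ∃ R : ℝ, A ⊆ ball p R := by
    obtain ⟨R, hR⟩ := hA.isBounded.subset_ball p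
    exact ⟨R, hR⟩
  set κ₁ : ℝ := min κ₀ 1 with hκ₁
  have hκ₁0 : 0 < κ₁ := lt_min hκ₀ one_pos
  set κ : ℕ → ℝ := fun k => κ₁ / ((k : ℝ) + 1) with hκd
  have hκ0 : ∀ k, 0 < κ k := fun k => by rw [hκd]; positivity
  have hκ1 : ∀ k, κ k ≤ κ₁ := fun k => by
    apply div_le_self hκ₁0.le
    have : (0 : ℝ) ≤ k := Nat.cast_nonneg k
    linarith
  have hκm : ∀ i j, i ≤ j → κ j ≤ κ i := fun i j hij => by
    apply div_le_div_of_nonneg_left hκ₁0.le (by positivity)
    have : (i : ℝ) ≤ j := by exact_mod_cast hij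
    linarith
  have hκt : Tendsto κ atTop (𝓝 0) := by
    have h1 := tendsto_one_div_add_atTop_nhds_zero_nat (𝕜 := ℝ)
    have h2 := h1.const_mul κ₁
    rw [mul_zero] at h2
    refine h2.congr fun k => ?_
    rw [hκd]
    ring
  have hAm : MeasurableSet A := hA.measurableSet
  have hAtop : m A ≠ ∞ := ((measure_mono hR).trans_lt (hfin p R)).ne
  have key : ∀ k, c ^ N * m A ≤ m (midSet A (ball p (κ k)) t (κ k)) := by
    intro k
    have hB0 : m (ball p (κ k)) ≠ 0 := (measure_ball_pos m p (hκ0 k)).ne'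
    have h1 := brunn_minkowski hCD hN hAm measurableSet_ball (x := p) (R := max R κ₁)
      (hR.trans (ball_subset_ball (le_max_left _ _)))
      (ball_subset_ball ((hκ1 k).trans (le_max_right _ _))) hA0 hB0 hAtop (hfin _ _).ne
      ht0 ht1 (hκ0 k) (c₀ := c) (c₁ := 0)
      (fun x hx y hy => hc x hx y (ball_subset_ball ((hκ1 k).trans (min_le_left _ _)) hy))
      (fun _ _ _ _ => zero_le)
    rw [zero_mul, add_zero] at h1
    have h2 := ENNReal.rpow_le_rpow h1 hN0.le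
    rwa [ENNReal.mul_rpow_of_nonneg _ _ hN0.le, ← ENNReal.rpow_mul, ← ENNReal.rpow_mul,
      one_div_mul_cancel hN0.ne', ENNReal.rpow_one, ENNReal.rpow_one] at h2
  have hanti : Antitone fun k => midSet A (ball p (κ k)) t (κ k) := fun i j hij =>
    midSet_mono (ball_subset_ball (hκm i j hij)) (hκm i j hij)
  have hlim := tendsto_measure_iInter_atTop (μ := m)
    (s := fun k => midSet A (ball p (κ k)) t (κ k))
    (fun k => (isOpen_midSet _ _ _ _).measurableSet.nullMeasurableSet) hanti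
    ⟨0, ((measure_mono (midSet_bdd ht0 ht1 hR (hκ0 0)
      ((hκ1 0).trans (min_le_right _ _)))).trans_lt (hfin _ _)).ne⟩
  exact (ge_of_tendsto' hlim key).trans (measure_mono (iInter_midSet hA p t hκt))

end

end Vale.Agent.P233.H939.BM
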