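import Vale.Agent.P233.H939.BM
import Vale.Agent.P233.H761.Tau
import Vale.Agent.P233.H227.ChDef

/-!
P233, stage 3b (helper939): the exact Brunn-Minkowski inequality with a point target in the
weighted form `BMV` of helper227, from the literal `CD(K,n)`.
-/

set_option linter.all false

open MeasureTheory Set Metric ProbabilityTheory Filter Topology
open scoped ENNReal NNReal

universe u

namespace Vale.Agent.P233.H939.BM

open Vale.Agent.P242 Vale.Agent.P242.H124 Vale.Agent.P233.H227.Ch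

/-! ### lower bound for the distortion coefficients -/

theorem sigma_ge_exp {K M t θ : ℝ} (hM : 0 < M) (ht0 : 0 ≤ t) (ht1 : t ≤ 1) (hθ : 0 ≤ θ) :
    ENNReal.ofReal (t * Real.exp ((1 - t ^ 2) * (K * θ ^ 2 / M) / 6)) ≤ sigmaCoeff K M t θ := by
  have e1 : √(K * θ ^ 2 / M) = θ * √(K / M) := by
    rw [show K * θ ^ 2 / M = θ ^ 2 * (K / M) by ring, Real.sqrt_mul (sq_nonneg θ),
      Real.sqrt_sq hθ]
  have e2 : √(-(K * θ ^ 2 / M)) = θ * √(-K / M) := by
    rw [show -(K * θ ^ 2 / M) = θ ^ 2 * (-K / M) by ring, Real.sqrt_mul (sq_nonneg θ),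
      Real.sqrt_sq hθ]
  unfold sigmaCoeff
  split_ifs with h1 h2 h3
  · exact le_top
  · have hc : K * θ ^ 2 / M < Real.pi ^ 2 := by
      rw [div_lt_iff₀ hM]
      linarith only [h1]
    have hc0 : 0 < K * θ ^ 2 / M := div_pos h2 hM
    apply ENNReal.ofReal_le_ofReal
    have h4 := H761.Tau.sg_ge_exp ht0 ht1 hc
    rwa [H761.Tau.sg_pos_eq hc0, e1] at h4
  · rw [h3]
    simp
  · have hc : K * θ ^ 2 / M < Real.pi ^ 2 := by
      rw [div_lt_iff₀ hM]
      linarith only [h1]
    have h4 : K * θ ^ 2 < 0 := lt_of_le_of_ne (not_lt.1 h2) h3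
    have hc0 : K * θ ^ 2 / M < 0 := div_neg_of_neg_of_pos h4 hM
    apply ENNReal.ofReal_le_ofReal
    have h5 := H761.Tau.sg_ge_exp ht0 ht1 hc
    rwa [H761.Tau.sg_neg_eq hc0, e2] at h5

theorem tau_ge_exp {K N t θ : ℝ} (hN : 1 < N) (ht0 : 0 ≤ t) (ht1 : t ≤ 1) (hθ : 0 ≤ θ) :
    ENNReal.ofReal (t ^ N * Real.exp ((1 - t ^ 2) * (K * θ ^ 2) / 6)) ≤
      tauCoeff K N t θ ^ N := by
  have hN0 : 0 < N := by linarith
  have hM : 0 < N - 1 := by linarith
  unfold tauCoeff
  rw [ENNReal.mul_rpow_of_nonneg _ _ hN0.le, ← ENNReal.rpow_mul, ← ENNReal.rpow_mul,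
    one_div, inv_mul_cancel₀ hN0.ne', ENNReal.rpow_one, div_mul_cancel₀ _ hN0.ne']
  rcases ht0.eq_or_lt with h0 | h0
  · subst h0
    rw [Real.zero_rpow hN0.ne']
    simp
  have h1 := sigma_ge_exp (K := K) hM ht0 ht1 hθ
  calc ENNReal.ofReal (t ^ N * Real.exp ((1 - t ^ 2) * (K * θ ^ 2) / 6))
      = ENNReal.ofReal t *
        ENNReal.ofReal (t * Real.exp ((1 - t ^ 2) * (K * θ ^ 2 / (N - 1)) / 6)) ^ (N - 1) := by
        rw [ENNReal.ofReal_rpow_of_pos (by positivity), ← ENNReal.ofReal_mul ht0]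
        congr 1
        have g1 : t * t ^ (N - 1) = t ^ N := by
          rw [Real.rpow_sub_one h0.ne']
          field_simp
        have g2 : (1 - t ^ 2) * (K * θ ^ 2 / (N - 1)) / 6 * (N - 1) =
            (1 - t ^ 2) * (K * θ ^ 2) / 6 := by
          field_simp
        calc t ^ N * Real.exp ((1 - t ^ 2) * (K * θ ^ 2) / 6)
            = (t * t ^ (N - 1)) *
              Real.exp ((1 - t ^ 2) * (K * θ ^ 2 / (N - 1)) / 6 * (N - 1)) := by rw [g1, g2]
          _ = t * (t * Real.exp ((1 - t ^ 2) * (K * θ ^ 2 / (N - 1)) / 6)) ^ (N - 1) := by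
            rw [Real.mul_rpow ht0 (Real.exp_pos _).le, ← Real.exp_mul, mul_assoc]
    _ ≤ _ := by gcongr

section

variable {X : Type u} [MetricSpace X] [CompleteSpace X] [SecondCountableTopology X]
  [MeasurableSpace X] [BorelSpace X]

/-- the lower bound for the coefficient holds near the pole -/
theorem bm_pole_cont {m : Measure X} [m.IsOpenPosMeasure]
    (hfin : ∀ (x : X) (r : ℝ), m (ball x r) < ∞)
    {K N : ℝ} (hCD : IsCD K N m) (hN : 1 < N) {A : Set X} (hA : IsCompact A) (p : X)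
    {t : ℝ} (ht0 : 0 < t) (ht1 : t < 1) {f : ℝ → ℝ} (hf : Continuous f)
    (hfτ : ∀ θ, 0 ≤ θ → ENNReal.ofReal (f θ) ≤ tauCoeff K N (1 - t) θ ^ N)
    {c : ℝ} (hc : ∀ x ∈ A, c ≤ f (dist x p)) :
    ENNReal.ofReal c * m A ≤ m (Zt t A p) := by
  have hN0 : 0 < N := by linarith
  -- for `c' < c`
  have key : ∀ c' < c, ENNReal.ofReal c' * m A ≤ m (Zt t A p) := by
    intro c' hc'
    have h1 : ∀ᶠ y in 𝓝 p, ∀ x ∈ A, c' < f (dist x y) := by
      apply hA.eventually_forall_of_forall_eventually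
      intro x hx
      have h2 : Tendsto (fun z : X × X => f (dist z.2 z.1)) (𝓝 (p, x)) (𝓝 (f (dist x p))) := by
        have : Continuous fun z : X × X => f (dist z.2 z.1) := by fun_prop
        exact this.tendsto (p, x)
      exact h2.eventually (lt_mem_nhds (hc'.trans_le (hc x hx)))
    obtain ⟨κ₀, hκ₀, h3⟩ := Metric.eventually_nhds_iff_ball.1 h1
    have h4 := bm_pole hfin hCD hN hA p ht0 ht1 (c := ENNReal.ofReal c' ^ (1 / N)) hκ₀ ?_
    · rwa [← ENNReal.rpow_mul, one_div_mul_cancel hN0.ne', ENNReal.rpow_one] at h4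
    · intro x hx y hy
      have h5 := (ENNReal.ofReal_le_ofReal (h3 y hy x hx).le).trans (hfτ _ dist_nonneg)
      have h6 := ENNReal.rpow_le_rpow h5 (z := 1 / N) (by positivity)
      rwa [← ENNReal.rpow_mul, mul_one_div_cancel hN0.ne', ENNReal.rpow_one] at h6
  have hlim : Tendsto (fun c' : ℝ => ENNReal.ofReal c' * m A) (𝓝[<] c)
      (𝓝 (ENNReal.ofReal c * m A)) := by
    have hAtop : m A ≠ ∞ := by
      obtain ⟨R, hR⟩ := hA.isBounded.subset_ball p
      exact ((measure_mono hR).trans_lt (hfin p R)).ne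
    apply ENNReal.Tendsto.mul_const _ (Or.inr hAtop)
    exact (ENNReal.continuous_ofReal.tendsto c).mono_left nhdsWithin_le_nhds
  refine le_of_tendsto hlim ?_
  filter_upwards [self_mem_nhdsWithin] with c' hc' using key c' hc'

/-- explicit form for a compact set in a thin annulus -/
theorem bm_exp {m : Measure X} [m.IsOpenPosMeasure]
    (hfin : ∀ (x : X) (r : ℝ), m (ball x r) < ∞)
    {K N : ℝ} (hCD : IsCD K N m) (hN : 1 < N) {A : Set X} (hA : IsCompact A) (p : X)
    {t : ℝ} (ht0 : 0 < t) (ht1 : t < 1) {c : ℝ} (hc : ∀ x ∈ A, c ≤ K * dist x p ^ 2) :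
    ENNReal.ofReal ((1 - t) ^ N * Real.exp ((1 - (1 - t) ^ 2) * c / 6)) * m A ≤
      m (Zt t A p) := by
  have h1 : 0 < 1 - t := by linarith
  refine bm_pole_cont hfin hCD hN hA p ht0 ht1
    (f := fun θ => (1 - t) ^ N * Real.exp ((1 - (1 - t) ^ 2) * (K * θ ^ 2) / 6))
    (by fun_prop) (fun θ hθ => tau_ge_exp hN h1.le (by linarith) hθ) ?_
  intro x hx
  have h2 : 0 ≤ 1 - (1 - t) ^ 2 := by nlinarith
  have h3 : 0 ≤ (1 - t) ^ N := by positivity
  apply mul_le_mul_of_nonneg_left _ h3
  apply Real.exp_le_exp.2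
  have := mul_le_mul_of_nonneg_left (hc x hx) h2
  linarith

/-- one thin annulus -/
theorem bmv_piece {m : Measure X} [m.IsOpenPosMeasure]
    (hfin : ∀ (x : X) (r : ℝ), m (ball x r) < ∞)
    {K : ℝ} {n : ℕ} (hCD : IsCD K n m) (hn : 1 < n) {A : Set X} (hA : IsCompact A) (p : X)
    {t : ℝ} (ht0 : 0 < t) (ht1 : t < 1) {ε : ℝ} (hε : 0 < ε) (k : ℤ) :
    ENNReal.ofReal ((1 - t) ^ n) * mV m K p (A ∩ {x | ⌊K * dist x p ^ 2 / ε⌋ = k}) ≤
      ENNReal.ofReal (Real.exp (ε / 6)) *
        mV m K p (Zt t A p ∩ {z | ⌊K * (dist z p / (1 - t)) ^ 2 / ε⌋ = k}) := by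
  have h1t : 0 < 1 - t := by linarith
  have hN : (1 : ℝ) < n := by exact_mod_cast hn
  set s : ℝ := 1 - t with hs
  set Z : Set X := Zt t A p ∩ {z | ⌊K * (dist z p / s) ^ 2 / ε⌋ = k} with hZ
  have hmf : Measurable fun z : X => K * (dist z p / s) ^ 2 / ε := by fun_prop
  have hmg : Measurable fun z : X => K * dist z p ^ 2 / ε := by fun_prop
  have hZm : MeasurableSet Z :=
    (isClosed_Zt hA p t).measurableSet.inter (hmf.floor (measurableSet_singleton k))
  have hVm : Measurable fun x : X => ENNReal.ofReal (VV K p x) := by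
    unfold VV
    fun_prop
  -- compact exhaustion of the piece
  set D : ℕ → Set X := fun j =>
    A ∩ {x | (k : ℝ) * ε ≤ K * dist x p ^ 2 ∧ K * dist x p ^ 2 ≤ (k + 1) * ε - 1 / ((j : ℝ) + 1)}
    with hD
  have hDc : ∀ j, IsCompact (D j) := by
    intro j
    have c1 : Continuous fun x : X => K * dist x p ^ 2 := by fun_prop
    exact hA.inter_right ((isClosed_le continuous_const c1).inter (isClosed_le c1 continuous_const))
  have hDmono : Monotone D := by
    intro i j hij x hx
    refine ⟨hx.1, hx.2.1, hx.2.2.trans ?_⟩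
    have h1 : (i : ℝ) ≤ j := by exact_mod_cast hij
    have h2 : 1 / ((j : ℝ) + 1) ≤ 1 / ((i : ℝ) + 1) :=
      one_div_le_one_div_of_le (by positivity) (by linarith)
    linarith only [h2]
  have hDu : (A ∩ {x | ⌊K * dist x p ^ 2 / ε⌋ = k}) = ⋃ j, D j := by
    ext x
    simp only [hD, mem_inter_iff, mem_ofPred_eq, mem_iUnion, Int.floor_eq_iff]
    constructor
    · rintro ⟨hx, h1, h2⟩
      rw [le_div_iff₀ hε] at h1
      rw [div_lt_iff₀ hε] at h2
      obtain ⟨j, hj⟩ := exists_nat_one_div_lt (sub_pos.2 h2)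
      exact ⟨j, hx, h1, by linarith only [hj]⟩
    · rintro ⟨j, hx, h1, h2⟩
      refine ⟨hx, ?_, ?_⟩
      · rwa [le_div_iff₀ hε]
      · rw [div_lt_iff₀ hε]
        have : 0 < 1 / ((j : ℝ) + 1) := by positivity
        linarith only [h2, this]
  -- each compact piece
  have key : ∀ j, ENNReal.ofReal (s ^ n) * mV m K p (D j) ≤
      ENNReal.ofReal (Real.exp (ε / 6)) * mV m K p Z := by
    intro j
    have hsub : Zt t (D j) p ⊆ Z := by
      rintro z ⟨x, hx, h1, h2⟩
      refine ⟨⟨x, hx.1, h1, h2⟩, ?_⟩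
      have h3 : dist z p / s = dist x p := by
        rw [h2, ← hs]
        field_simp
      have h4 : x ∈ (A ∩ {x | ⌊K * dist x p ^ 2 / ε⌋ = k}) := by
        rw [hDu]
        exact mem_iUnion.2 ⟨j, hx⟩
      rw [mem_ofPred_eq, h3]
      exact h4.2
    have h1 := bm_exp hfin hCD hN (hDc j) p ht0 ht1 (c := k * ε) (fun x hx => hx.2.1)
    rw [← hs, Real.rpow_natCast] at h1
    -- upper bound of the mass of the piece
    have h2 : mV m K p (D j) ≤ ENNReal.ofReal (Real.exp ((k + 1) * ε / 6)) * m (D j) := by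
      rw [mV, withDensity_apply _ (hDc j).measurableSet, ← setLIntegral_const]
      apply setLIntegral_mono measurable_const
      intro x hx
      apply ENNReal.ofReal_le_ofReal
      apply Real.exp_le_exp.2
      have h3 := hx.2.2
      have : 0 < 1 / ((j : ℝ) + 1) := by positivity
      linarith only [h3, this]
    -- lower bound of the mass of the image
    have h3 : ENNReal.ofReal (Real.exp (s ^ 2 * (k * ε) / 6)) * m Z ≤ mV m K p Z := by
      rw [mV, withDensity_apply _ hZm, ← setLIntegral_const]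
      apply setLIntegral_mono hVm
      intro z hz
      apply ENNReal.ofReal_le_ofReal
      apply Real.exp_le_exp.2
      have h4 := (Int.floor_eq_iff.1 hz.2).1
      rw [le_div_iff₀ hε, div_pow] at h4
      have h5 : s ^ 2 * (k * ε) ≤ s ^ 2 * (K * (dist z p ^ 2 / s ^ 2)) :=
        mul_le_mul_of_nonneg_left h4 (by positivity)
      have h6 : s ^ 2 * (K * (dist z p ^ 2 / s ^ 2)) = K * dist z p ^ 2 := by
        field_simp
      rw [h6] at h5
      linarith only [h5]
    have e1 : s ^ n * Real.exp ((k + 1) * ε / 6) =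
        (Real.exp (ε / 6) * Real.exp (s ^ 2 * (k * ε) / 6)) *
          (s ^ n * Real.exp ((1 - s ^ 2) * (k * ε) / 6)) := by
      have : Real.exp ((k + 1) * ε / 6) = Real.exp (ε / 6) * Real.exp (s ^ 2 * (k * ε) / 6) *
          Real.exp ((1 - s ^ 2) * (k * ε) / 6) := by
        rw [← Real.exp_add, ← Real.exp_add]
        congr 1
        ring
      rw [this]
      ring
    calc ENNReal.ofReal (s ^ n) * mV m K p (D j)
        ≤ ENNReal.ofReal (s ^ n) * (ENNReal.ofReal (Real.exp ((k + 1) * ε / 6)) * m (D j)) := by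
          gcongr
      _ = ENNReal.ofReal (Real.exp (ε / 6)) * ENNReal.ofReal (Real.exp (s ^ 2 * (k * ε) / 6)) *
          (ENNReal.ofReal (s ^ n * Real.exp ((1 - s ^ 2) * (k * ε) / 6)) * m (D j)) := by
          rw [← mul_assoc, ← mul_assoc, ← ENNReal.ofReal_mul (by positivity),
            ← ENNReal.ofReal_mul (by positivity), ← ENNReal.ofReal_mul (by positivity), e1]
      _ ≤ ENNReal.ofReal (Real.exp (ε / 6)) * ENNReal.ofReal (Real.exp (s ^ 2 * (k * ε) / 6)) *
          m Z := by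
          gcongr
          exact h1.trans (measure_mono hsub)
      _ ≤ _ := by
          rw [mul_assoc]
          gcongr
  rw [hDu, hDmono.directed_le.measure_iUnion, ENNReal.mul_iSup]
  exact iSup_le key

/-- **Brunn-Minkowski with a point target, weighted form** -/
theorem bmv {m : Measure X} [m.IsOpenPosMeasure]
    (hfin : ∀ (x : X) (r : ℝ), m (ball x r) < ∞)
    {K : ℝ} {n : ℕ} (hCD : IsCD K n m) (hn : 1 < n) : BMV m n K := by
  intro p t ht0 ht1 A hA
  change ENNReal.ofReal ((1 - t) ^ n) * mV m K p A ≤ mV m K p (Zt t A p)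
  have key : ∀ ε : ℝ, 0 < ε → ENNReal.ofReal ((1 - t) ^ n) * mV m K p A ≤
      ENNReal.ofReal (Real.exp (ε / 6)) * mV m K p (Zt t A p) := by
    intro ε hε
    have hmg : Measurable fun z : X => K * dist z p ^ 2 / ε := by fun_prop
    have hmf : Measurable fun z : X => K * (dist z p / (1 - t)) ^ 2 / ε := by fun_prop
    have e1 : mV m K p A = ∑' k : ℤ, mV m K p (A ∩ {x | ⌊K * dist x p ^ 2 / ε⌋ = k}) := by
      rw [← measure_iUnion]
      · congr 1
        ext x
        simp
      · intro i j hij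
        rw [Function.onFun, Set.disjoint_left]
        rintro x ⟨-, h1⟩ ⟨-, h2⟩
        exact hij (h1.symm.trans h2)
      · exact fun k => hA.measurableSet.inter (hmg.floor (measurableSet_singleton k))
    have e2 : mV m K p (Zt t A p) = ∑' k : ℤ, mV m K p
        (Zt t A p ∩ {z | ⌊K * (dist z p / (1 - t)) ^ 2 / ε⌋ = k}) := by
      rw [← measure_iUnion]
      · congr 1
        ext x
        simp
      · intro i j hij
        rw [Function.onFun, Set.disjoint_left]
        rintro x ⟨-, h1⟩ ⟨-, h2⟩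
        exact hij (h1.symm.trans h2)
      · exact fun k => (isClosed_Zt hA p t).measurableSet.inter
          (hmf.floor (measurableSet_singleton k))
    rw [e1, e2, ← ENNReal.tsum_mul_left, ← ENNReal.tsum_mul_left]
    exact ENNReal.tsum_le_tsum fun k => bmv_piece hfin hCD hn hA p ht0 ht1 hε k
  have hVtop : mV m K p (Zt t A p) ≠ ∞ := by
    obtain ⟨R, hR⟩ := hA.isBounded.subset_ball p
    have hsub : Zt t A p ⊆ ball p R := by
      rintro z ⟨x, hx, h1, h2⟩
      have h3 := hR hx
      rw [mem_ball] at h3 ⊢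
      have h4 : t * dist x p ≥ 0 := by positivity
      linarith only [h2, h3, h4]
    refine ((measure_mono hsub).trans_lt ?_).ne
    rw [mV, withDensity_apply _ measurableSet_ball]
    calc ∫⁻ x in ball p R, ENNReal.ofReal (VV K p x) ∂m
        ≤ ∫⁻ x in ball p R, ENNReal.ofReal (Real.exp (|K| * R ^ 2 / 6)) ∂m := by
          apply setLIntegral_mono measurable_const
          intro x hx
          apply ENNReal.ofReal_le_ofReal
          apply Real.exp_le_exp.2
          rw [mem_ball] at hx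
          have h1 : dist x p ^ 2 ≤ R ^ 2 := pow_le_pow_left₀ dist_nonneg hx.le 2
          have h2 : K * dist x p ^ 2 ≤ |K| * R ^ 2 :=
            mul_le_mul (le_abs_self K) h1 (by positivity) (abs_nonneg K)
          linarith only [h2]
      _ < ∞ := by
          rw [setLIntegral_const]
          exact ENNReal.mul_lt_top ENNReal.ofReal_lt_top (hfin p R)
  have hlim : Tendsto (fun ε : ℝ => ENNReal.ofReal (Real.exp (ε / 6)) * mV m K p (Zt t A p))
      (𝓝[>] 0) (𝓝 (ENNReal.ofReal (Real.exp (0 / 6)) * mV m K p (Zt t A p))) := by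
    apply ENNReal.Tendsto.mul_const _ (Or.inr hVtop)
    have : Continuous fun ε : ℝ => ENNReal.ofReal (Real.exp (ε / 6)) :=
      ENNReal.continuous_ofReal.comp (by fun_prop)
    exact (this.tendsto 0).mono_left nhdsWithin_le_nhds
  rw [zero_div, Real.exp_zero, ENNReal.ofReal_one, one_mul] at hlim
  refine ge_of_tendsto hlim ?_
  filter_upwards [self_mem_nhdsWithin] with ε hε using key ε hε

end

end Vale.Agent.P233.H939.BM
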