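import Vale.Agent.P233.Bd3.B1

/-! P233, row A5en (helper939): static energy bound outside a set where the function is small
(Caccioppoli), and the energy of `u` from `h = exp (-u/ε) - 1`. -/

set_option linter.all false

open MeasureTheory Filter Topology Set
open scoped ENNReal NNReal

namespace Vale.Agent.P233.H939

variable {M : Type*} [MeasurableSpace M] {m : Measure M} {C : Calc m}

/-- Caccioppoli: `η = 1` off `S`, `0 ≤ η ≤ 1`, `Γ η η ≤ 1`. -/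
theorem cacc (hC : IsDir C) {h k η : M →ₘ[m] ℝ} (hl : C.IsLap h k) (hη : η ∈ C.A)
    (hηL : ∀ᵐ x ∂m, C.Γ η η x ≤ 1) (h01 : ∀ᵐ x ∂m, 0 ≤ η x ∧ η x ≤ 1) {S : Set M}
    (hS : MeasurableSet S) (hη1 : ∀ᵐ x ∂m, x ∉ S → η x = 1 ∧ C.Γ η η x = 0) :
    Integrable (fun x => (1 - η x) ^ 2 * C.Γ h h x) m ∧
    ∫ x, (1 - η x) ^ 2 * C.Γ h h x ∂m
      ≤ 2 * (√(I (k ^ 2)) * √(∫ x in S, h x ^ 2 ∂m)) + 4 * ∫ x in S, h x ^ 2 ∂m := by
  obtain ⟨hh, hk, hl⟩ := hl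
  have hηL' : MemLp (C.Γ η η) ∞ m := by
    refine mem_top_iff.2 ⟨1, ?_⟩
    filter_upwards [hηL, hC.Γ_nonneg_ae hη.1] with x a1 a2
    rw [abs_of_nonneg a2]; exact a1
  have h2 := hC.memLp h hh
  set ζ : M →ₘ[m] ℝ := (2 : ℝ) • η - η * η with hζ
  have hζA : ζ ∈ C.A := hC.A_sub (hC.A_smul 2 hη) (hC.mul_mem_A hη hη)
  have hζae : ⇑ζ =ᵐ[m] fun x => 2 * η x - η x * η x := by
    filter_upwards [sub_ae ((2 : ℝ) • η) (η * η), smul_ae (f := η) (2 : ℝ), mul_ae (f := η) (g := η)]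
      with x a1 a2 a3
    rw [hζ, a1, a2, a3]
  have hζΓ : ∀ g ∈ C.W, ∀ᵐ x ∂m, C.Γ ζ g x = 2 * (1 - η x) * C.Γ η g x := by
    intro g hg
    have e1 : C.Γ ζ g = (2 : ℝ) • C.Γ η g - (η * C.Γ η g + η * C.Γ η g) := by
      rw [hζ, hC.Γ_sub_left (hC.smul_mem _ _ hη.1) (hC.mul_mem_A hη hη).1 hg,
        hC.smul_left _ _ hη.1 _ hg, hC.Γ_mul_left hη hη hg]
    rw [e1]
    filter_upwards [sub_ae ((2 : ℝ) • C.Γ η g) (η * C.Γ η g + η * C.Γ η g),
      smul_ae (f := C.Γ η g) (2 : ℝ), add_ae (η * C.Γ η g) (η * C.Γ η g),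
      mul_ae (f := η) (g := C.Γ η g)] with x a1 a2 a3 a4
    rw [a1, a2, a3, a4]; ring
  have hζζ : MemLp (C.Γ ζ ζ) ∞ m := by
    refine mem_top_iff.2 ⟨4, ?_⟩
    filter_upwards [hζΓ ζ hζA.1, hζΓ η hη.1, h01, hηL, hC.Γ_nonneg_ae hη.1,
      hC.Γ_nonneg_ae hζA.1, (eq_iff_ae.1 (hC.symm ζ hζA.1 η hη.1))] with x a1 a2 a3 a4 a5 a6 a7
    rw [abs_of_nonneg a6, a1, ← a7, a2]
    have b1 : (1 - η x) ^ 2 ≤ 1 := by nlinarith [a3.1, a3.2]
    have : 2 * (1 - η x) * (2 * (1 - η x) * C.Γ η η x) = 4 * ((1 - η x) ^ 2 * C.Γ η η x) := by ring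
    rw [this]
    have : (1 - η x) ^ 2 * C.Γ η η x ≤ 1 := by
      calc (1 - η x) ^ 2 * C.Γ η η x ≤ 1 * 1 := by
            apply mul_le_mul b1 a4 a5 (by norm_num)
        _ = 1 := by norm_num
    linarith
  have hζh : ζ * h ∈ C.W := hC.mul_mem_lip hζA hζζ hh
  set w : M →ₘ[m] ℝ := h - ζ * h with hw
  have hwW : w ∈ C.W := hC.sub_mem hh hζh
  have hw2 := hC.memLp w hwW
  have hwae : ⇑w =ᵐ[m] fun x => (1 - η x) ^ 2 * h x := by
    filter_upwards [sub_ae h (ζ * h), mul_ae (f := ζ) (g := h), hζae] with x a1 a2 a3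
    rw [hw, a1, a2, a3]; ring
  have hGh := hC.Γ_mem1 hh hh
  have hGζ2 : MemLp (C.Γ ζ h) 2 m := hC.Γ_mem2 hζA.1 hζζ hh
  have e1 : C.Γ h w = C.Γ h h - (ζ * C.Γ h h + h * C.Γ ζ h) := by
    rw [hw, hC.Γ_sub_right hh hh hζh, hC.symm h hh (ζ * h) hζh, hC.Γ_mul_left_lip hζA hζζ hh hh]
  have m1 : MemLp (ζ * C.Γ h h : M →ₘ[m] ℝ) 1 m := mem_mul_top hζA.2 hGh
  have m2 : MemLp (h * C.Γ ζ h : M →ₘ[m] ℝ) 1 m := mem_mul_22 h2 hGζ2
  have m3 : MemLp (C.Γ h h - ζ * C.Γ h h : M →ₘ[m] ℝ) 1 m := mem_sub hGh m1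
  have key : I (C.Γ h h - ζ * C.Γ h h) = -I (k * w) + I (h * C.Γ ζ h) := by
    have a1 : I (C.Γ h w) = -I (k * w) := hl w hwW
    rw [← a1, e1, I_sub hGh (mem_add m1 m2), I_add m1 m2, I_sub hGh m1]; ring
  -- the left side
  have hL : ⇑(C.Γ h h - ζ * C.Γ h h) =ᵐ[m] fun x => (1 - η x) ^ 2 * C.Γ h h x := by
    filter_upwards [sub_ae (C.Γ h h) (ζ * C.Γ h h), mul_ae (f := ζ) (g := C.Γ h h), hζae]
      with x a1 a2 a3
    rw [a1, a2, a3]; ring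
  have hLi : Integrable (fun x => (1 - η x) ^ 2 * C.Γ h h x) m := (int_of_mem m3).congr hL
  have hLI : I (C.Γ h h - ζ * C.Γ h h) = ∫ x, (1 - η x) ^ 2 * C.Γ h h x ∂m :=
    integral_congr_ae hL
  refine ⟨hLi, ?_⟩
  have hsq : Integrable (fun x => h x ^ 2) m := h2.integrable_sq
  have hSi : Integrable (S.indicator fun x => h x ^ 2) m := hsq.indicator hS
  have hSI : ∫ x, S.indicator (fun x => h x ^ 2) x ∂m = ∫ x in S, h x ^ 2 ∂m :=
    integral_indicator hS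
  -- first term
  have b1 : I (w ^ 2) ≤ ∫ x in S, h x ^ 2 ∂m := by
    rw [← hSI]
    refine integral_mono_ae (int_of_mem (mem_sq hw2)) hSi ?_
    filter_upwards [sq_ae (f := w), hwae, h01, hη1] with x a1 a2 a3 a4
    rw [a1, a2]
    by_cases hx : x ∈ S
    · rw [indicator_of_mem hx]
      have : (1 - η x) ^ 2 ≤ 1 := by nlinarith [a3.1, a3.2]
      have h0 : 0 ≤ (1 - η x) ^ 2 := sq_nonneg _
      calc ((1 - η x) ^ 2 * h x) ^ 2 = ((1 - η x) ^ 2) ^ 2 * h x ^ 2 := by ring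
        _ ≤ 1 * h x ^ 2 := by
            apply mul_le_mul_of_nonneg_right _ (sq_nonneg _)
            nlinarith
        _ = h x ^ 2 := one_mul _
    · rw [indicator_of_notMem hx, (a4 hx).1]; norm_num
  have b2 : -I (k * w) ≤ √(I (k ^ 2)) * √(∫ x in S, h x ^ 2 ∂m) := by
    refine (neg_le_abs _).trans ((I_abs_le hk hw2).trans ?_)
    exact mul_le_mul_of_nonneg_left (Real.sqrt_le_sqrt b1) (Real.sqrt_nonneg _)
  -- second term
  have b3 : I (h * C.Γ ζ h) ≤ 2⁻¹ * (∫ x, (1 - η x) ^ 2 * C.Γ h h x ∂m)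
      + 2 * ∫ x in S, h x ^ 2 ∂m := by
    rw [← hSI, ← integral_const_mul, ← integral_const_mul,
      ← integral_add (hLi.const_mul _) (hSi.const_mul _)]
    refine integral_mono_ae (int_of_mem m2) ((hLi.const_mul _).add (hSi.const_mul _)) ?_
    filter_upwards [mul_ae (f := h) (g := C.Γ ζ h), hζΓ h hh, h01, hη1, hηL, hC.Γ_nonneg_ae hη.1,
      hC.Γ_nonneg_ae hh, hC.Γ_cs_ae hη.1 hh] with x a1 a2 a3 a4 a5 a6 a7 a8
    rw [a1, a2]
    have c1 : h x * (2 * (1 - η x) * C.Γ η h x)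
        ≤ 2⁻¹ * ((1 - η x) ^ 2 * C.Γ h h x) + 2 * (h x ^ 2 * C.Γ η η x) := by
      rcases eq_or_lt_of_le a7 with h0 | h0
      · have : C.Γ η h x = 0 := by
          have : C.Γ η h x ^ 2 ≤ 0 := by rw [← h0] at a8; simpa using a8
          exact pow_eq_zero_iff (two_ne_zero) |>.1 (le_antisymm this (sq_nonneg _))
        rw [this, ← h0]
        have : 0 ≤ h x ^ 2 * C.Γ η η x := by positivity
        simp only [mul_zero, zero_add]
        linarith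
      · -- `2 a b ≤ a^2/2 + 2 b^2`, weights by `Γ h h`
        have d1 : C.Γ η h x ^ 2 / C.Γ h h x ≤ C.Γ η η x := by
          rw [div_le_iff₀ h0]; linarith
        have d2 : 0 ≤ (1 - η x - 2 * h x * C.Γ η h x / C.Γ h h x) ^ 2 * C.Γ h h x := by positivity
        have d3 : (1 - η x - 2 * h x * C.Γ η h x / C.Γ h h x) ^ 2 * C.Γ h h x
            = (1 - η x) ^ 2 * C.Γ h h x - 4 * (1 - η x) * h x * C.Γ η h x
              + 4 * (h x ^ 2 * (C.Γ η h x ^ 2 / C.Γ h h x)) := by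
          field_simp
          ring
        have d4 : h x ^ 2 * (C.Γ η h x ^ 2 / C.Γ h h x) ≤ h x ^ 2 * C.Γ η η x :=
          mul_le_mul_of_nonneg_left d1 (sq_nonneg _)
        nlinarith
    by_cases hx : x ∈ S
    · rw [indicator_of_mem hx]
      have : h x ^ 2 * C.Γ η η x ≤ h x ^ 2 := by
        calc h x ^ 2 * C.Γ η η x ≤ h x ^ 2 * 1 := mul_le_mul_of_nonneg_left a5 (sq_nonneg _)
          _ = h x ^ 2 := mul_one _
      linarith
    · rw [indicator_of_notMem hx]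
      rw [(a4 hx).2] at c1
      linarith
  rw [hLI] at key
  linarith

end Vale.Agent.P233.H939
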