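import Vale.Agent.P233.H939.Cacc
import Vale.Agent.P233.H748.Ex
import Vale.Agent.P233.H183.Unit
import Vale.Agent.P233.Gig.IfA

/-! P233, row A5en (helper939): the energy bound of the viscous potentials (field `LevU.en`). -/

set_option linter.all false

open MeasureTheory Filter Topology Set
open scoped ENNReal NNReal

namespace Vale.Agent.P233.H939

section abstract

variable {M : Type*} [MeasurableSpace M] {m : Measure M} {C : Calc m}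

/-- The energy of `u ≤ 0` from the energy of `h = exp (-u/ε) - 1` off a set of finite measure. -/
theorem energy_le (hC : IsDir C) {u k η : M →ₘ[m] ℝ} {ε D : ℝ} (hε : 0 < ε) (hu : u ∈ C.A)
    (hu0 : ∀ᵐ x ∂m, u x ≤ 0) (hD : ∀ᵐ x ∂m, C.Γ u u x ≤ D ^ 2)
    (hl : C.IsLap (ex (-(ε⁻¹ • u)) - 1) k) (hη : η ∈ C.A)
    (hηL : ∀ᵐ x ∂m, C.Γ η η x ≤ 1) (h01 : ∀ᵐ x ∂m, 0 ≤ η x ∧ η x ≤ 1) {S B : Set M}
    (hS : MeasurableSet S) (hη1 : ∀ᵐ x ∂m, x ∉ S → η x = 1 ∧ C.Γ η η x = 0)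
    (hB : MeasurableSet B) (hBfin : m B < ∞) (hη0 : ∀ᵐ x ∂m, x ∉ B → η x = 0) :
    I (C.Γ u u) ≤ D ^ 2 * (m B).toReal
      + ε ^ 2 * (2 * (√(I (k ^ 2)) * √(∫ x in S, (ex (-(ε⁻¹ • u)) - 1 : M →ₘ[m] ℝ) x ^ 2 ∂m))
        + 4 * ∫ x in S, (ex (-(ε⁻¹ • u)) - 1 : M →ₘ[m] ℝ) x ^ 2 ∂m) := by
  set h : M →ₘ[m] ℝ := ex (-(ε⁻¹ • u)) - 1 with hh
  obtain ⟨i1, i2⟩ := cacc hC hl hη hηL h01 hS hη1
  have hf : -(ε⁻¹ • u) ∈ C.A := by
    have := hC.A_smul (-ε⁻¹) hu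
    rwa [neg_smul] at this
  have e1 : C.Γ (-(ε⁻¹ • u)) (-(ε⁻¹ • u)) = (ε⁻¹ * ε⁻¹) • C.Γ u u := by
    have e0 : -(ε⁻¹ • u) = (-ε⁻¹) • u := by rw [neg_smul]
    rw [e0, hC.smul_left _ _ hu.1 _ (hC.smul_mem _ _ hu.1), hC.Γ_smul_right _ hu.1 hu.1,
      smul_smul]
    congr 1; ring
  have e2 : C.Γ h h = ex (-(ε⁻¹ • u)) ^ 2 * C.Γ (-(ε⁻¹ • u)) (-(ε⁻¹ • u)) := hC.Γ_ex_self hf
  have hi : Integrable (fun x => B.indicator (fun _ => D ^ 2) x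
      + ε ^ 2 * ((1 - η x) ^ 2 * C.Γ h h x)) m := by
    refine Integrable.add ?_ (i1.const_mul _)
    exact (integrable_indicator_iff hB).2 (integrableOn_const hBfin.ne)
  have h1 : I (C.Γ u u) ≤ ∫ x, (B.indicator (fun _ => D ^ 2) x
      + ε ^ 2 * ((1 - η x) ^ 2 * C.Γ h h x)) ∂m := by
    refine integral_mono_ae (int_of_mem (hC.mem1 u hu.1)) hi ?_
    filter_upwards [hD, hu0, hη0, hC.Γ_nonneg_ae hu.1, eq_iff_ae.1 e2, eq_iff_ae.1 e1,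
      mul_ae (f := ex (-(ε⁻¹ • u)) ^ 2) (g := C.Γ (-(ε⁻¹ • u)) (-(ε⁻¹ • u))),
      sq_ae (f := ex (-(ε⁻¹ • u))), ex_ae (-(ε⁻¹ • u)), neg_ae (f := ε⁻¹ • u),
      smul_ae (f := u) ε⁻¹, smul_ae (f := C.Γ u u) (ε⁻¹ * ε⁻¹)]
      with x a1 a2 a3 a4 a5 a6 a7 a8 a9 a10 a11 a12
    have hG : C.Γ h h x = Real.exp (-(ε⁻¹ * u x)) ^ 2 * (ε⁻¹ * ε⁻¹ * C.Γ u u x) := by
      rw [a5, a7, a8, a9, a10, a11, a6, a12]
    by_cases hx : x ∈ B
    · rw [indicator_of_mem hx]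
      have : 0 ≤ ε ^ 2 * ((1 - η x) ^ 2 * C.Γ h h x) := by
        rw [hG]; positivity
      linarith
    · rw [indicator_of_notMem hx, a3 hx, hG]
      have b1 : 1 ≤ Real.exp (-(ε⁻¹ * u x)) := by
        refine Real.one_le_exp ?_
        have : ε⁻¹ * u x ≤ 0 := mul_nonpos_of_nonneg_of_nonpos (by positivity) a2
        linarith
      have b2 : 1 ≤ Real.exp (-(ε⁻¹ * u x)) ^ 2 := by nlinarith
      have b3 : ε ^ 2 * ((1 - 0) ^ 2 * (Real.exp (-(ε⁻¹ * u x)) ^ 2 * (ε⁻¹ * ε⁻¹ * C.Γ u u x)))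
          = Real.exp (-(ε⁻¹ * u x)) ^ 2 * C.Γ u u x := by
        field_simp
        ring
      rw [b3]
      nlinarith
  refine h1.trans ?_
  rw [integral_add ((integrable_indicator_iff hB).2 (integrableOn_const hBfin.ne))
    (i1.const_mul _), integral_indicator hB, integral_const_mul, setIntegral_const]
  have h2 : m.real B = (m B).toReal := rfl
  rw [smul_eq_mul, h2, mul_comm (m B).toReal]
  have h3 := mul_le_mul_of_nonneg_left i2 (sq_nonneg ε)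
  linarith

/-- `∫ (exp (-u/ε) - 1)² ≤ ε⁻² e^{2C₀/ε} ∫ u²` for `-C₀ ≤ u ≤ 0` -/
theorem init_le {u : M →ₘ[m] ℝ} {ε C₀ : ℝ} (hε : 0 < ε) (hu2 : MemLp u 2 m)
    (hu : ∀ᵐ x ∂m, -C₀ ≤ u x ∧ u x ≤ 0) :
    I ((ex (-(ε⁻¹ • u)) - 1) ^ 2) ≤ (ε⁻¹ * Real.exp (C₀ / ε)) ^ 2 * I (u ^ 2) := by
  have e : (ε⁻¹ * Real.exp (C₀ / ε)) ^ 2 * I (u ^ 2)
      = I ((ε⁻¹ * Real.exp (C₀ / ε)) ^ 2 • u ^ 2) := by rw [I_smul]
  rw [e]
  refine integral_mono_of_nonneg (nonneg_iff_ae.1 (sq_nonneg' _))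
    (int_of_mem (mem_smul _ (mem_sq hu2))) ?_
  · filter_upwards [hu, sq_ae (f := (ex (-(ε⁻¹ • u)) - 1 : M →ₘ[m] ℝ)),
      sub_ae (ex (-(ε⁻¹ • u))) (1 : M →ₘ[m] ℝ), one_ae (M := M) (m := m), ex_ae (-(ε⁻¹ • u)),
      neg_ae (f := ε⁻¹ • u), smul_ae (f := u) ε⁻¹, sq_ae (f := u),
      smul_ae (f := u ^ 2) ((ε⁻¹ * Real.exp (C₀ / ε)) ^ 2)] with x a1 a2 a3 a4 a5 a6 a7 a8 a9
    rw [a2, a3, a4, a5, a6, a7, a9, a8]
    set y := -(ε⁻¹ * u x) with hy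
    have y0 : 0 ≤ y := by
      have : ε⁻¹ * u x ≤ 0 := mul_nonpos_of_nonneg_of_nonpos (by positivity) a1.2
      linarith
    have y1 : y ≤ C₀ / ε := by
      rw [hy, div_eq_inv_mul]
      have : ε⁻¹ * (-C₀) ≤ ε⁻¹ * u x := mul_le_mul_of_nonneg_left a1.1 (by positivity)
      linarith
    have y2 : Real.exp y - 1 ≤ y * Real.exp y := by
      have := Real.add_one_le_exp (-y)
      have h3 : Real.exp y * Real.exp (-y) = 1 := by rw [← Real.exp_add, add_neg_cancel, Real.exp_zero]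
      nlinarith [Real.exp_pos y]
    have y3 : 0 ≤ Real.exp y - 1 := by linarith [Real.one_le_exp y0]
    have y4 : Real.exp y - 1 ≤ y * Real.exp (C₀ / ε) :=
      y2.trans (mul_le_mul_of_nonneg_left (Real.exp_le_exp.2 y1) y0)
    calc (Real.exp y - 1) ^ 2 ≤ (y * Real.exp (C₀ / ε)) ^ 2 := by
          apply pow_le_pow_left₀ y3 y4
      _ = (ε⁻¹ * Real.exp (C₀ / ε)) ^ 2 * u x ^ 2 := by rw [hy]; ring

end abstract

section metric

universe u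

variable {M : Type u} [MetricSpace M] [MeasurableSpace M] [BorelSpace M] {m : Measure M}

/-- cut-off: `1` on `ball p R`, `0` outside `ball p (R+1)` -/
noncomputable def ct (p : M) (R : ℝ) (x : M) : ℝ := max 0 (min 1 (R + 1 - dist p x))

theorem ct_lip (p : M) (R : ℝ) : LipschitzWith 1 (ct p R) := by
  have h1 : LipschitzWith 1 (fun x : M => R + 1 - dist p x) := by
    refine LipschitzWith.of_dist_le_mul fun x y => ?_
    have := (LipschitzWith.dist_right p).dist_le_mul x y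
    rw [Real.dist_eq] at this ⊢
    have e : R + 1 - dist p x - (R + 1 - dist p y) = -(dist p x - dist p y) := by ring
    rw [e, abs_neg]; exact this
  have h2 := (h1.const_min 1).const_max 0
  exact h2

theorem ct_zero {p : M} {R : ℝ} {x : M} (h : R + 1 ≤ dist p x) : ct p R x = 0 := by
  unfold ct
  exact max_eq_left ((min_le_right _ _).trans (by linarith))

theorem ct_one {p : M} {R : ℝ} {x : M} (h : dist p x ≤ R) : ct p R x = 1 := by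
  unfold ct
  rw [min_eq_left (by linarith)]; norm_num

theorem ct_mem (p : M) (R : ℝ) (x : M) : 0 ≤ ct p R x ∧ ct p R x ≤ 1 :=
  ⟨le_max_left _ _, max_le (by norm_num) (min_le_left _ _)⟩

variable [SecondCountableTopology M]

/-- One time: energy of a potential with a small tail. -/
theorem energy_le' (hC : IsDir (sob m)) (hfin : ∀ (x : M) (r : ℝ), m (Metric.ball x r) < ∞)
    {w k : M →ₘ[m] ℝ} {ε D : ℝ} (hε : 0 < ε) (hu : w ∈ (sob m).A)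
    (hu0 : ∀ᵐ x ∂m, w x ≤ 0) (hD : ∀ᵐ x ∂m, (sob m).Γ w w x ≤ D ^ 2)
    (hl : (sob m).IsLap (ex (-(ε⁻¹ • w)) - 1) k) (p : M) (R : ℝ) :
    I ((sob m).Γ w w) ≤ D ^ 2 * (m (Metric.ball p (R + 1))).toReal
      + ε ^ 2 * (2 * (√(I (k ^ 2)) *
          √(∫ x in (Metric.ball p R)ᶜ, (ex (-(ε⁻¹ • w)) - 1 : M →ₘ[m] ℝ) x ^ 2 ∂m))
        + 4 * ∫ x in (Metric.ball p R)ᶜ, (ex (-(ε⁻¹ • w)) - 1 : M →ₘ[m] ℝ) x ^ 2 ∂m) := by
  have hlip := ct_lip p R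
  have hA : cl m (ct p R) ∈ (sob m).A := H183.cl_mem_A hfin hlip (fun _ h => ct_zero h)
  have hae : ⇑(cl m (ct p R)) =ᵐ[m] ct p R := H183.cl_cont hlip.continuous
  refine energy_le hC hε hu hu0 hD hl hA ?_ ?_ Metric.isOpen_ball.measurableSet.compl ?_
    Metric.isOpen_ball.measurableSet (hfin _ _) ?_
  · have := H183.Γ_cl_le hfin hlip (x₀ := p) (R := R + 1) (fun _ h => ct_zero h)
    filter_upwards [this] with x hx
    simpa using hx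
  · filter_upwards [hae] with x hx
    rw [hx]; exact ct_mem p R x
  · filter_upwards [hae, H183.Γ_loc0 hC hA.1 hA.1 1] with x h1 h2 hx
    rw [mem_compl_iff, not_not, Metric.mem_ball, dist_comm] at hx
    have h3 : cl m (ct p R) x = 1 := by rw [h1]; exact ct_one hx.le
    exact ⟨h3, h2 h3⟩
  · filter_upwards [hae] with x h1 hx
    rw [Metric.mem_ball, not_lt, dist_comm] at hx
    rw [h1]; exact ct_zero hx

/-- Row A5en. `hT` is the tail bound (helper165) with a rate `> 2 C₀ + 2`. -/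
theorem en_of_tail (hC : IsDir (sob m)) (hfin : ∀ (x : M) (r : ℝ), m (Metric.ball x r) < ∞)
    {K : ℝ} {P : ℝ → (M →ₘ[m] ℝ) → (M →ₘ[m] ℝ)} (hP : Heat (sob m) K P) {a l : M →ₘ[m] ℝ}
    (ha : MemLp a 2 m) {ε C₀ D T R : ℝ} (p : M) {φ u : ℝ → M →ₘ[m] ℝ}
    (hA : ∀ t ∈ Icc (0 : ℝ) 1, u t ∈ (sob m).A)
    (hF : Fam (sob m) P ε a l φ u)
    (hε1 : ε ≤ 1)
    (hb : ∀ t ∈ Icc (0 : ℝ) 1, ∀ᵐ x ∂m, -C₀ ≤ u t x ∧ u t x ≤ 0)
    (hD : ∀ t ∈ Icc (0 : ℝ) 1, ∀ᵐ x ∂m, (sob m).Γ (u t) (u t) x ≤ D ^ 2)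
    (hT : ∀ t ∈ Icc (0 : ℝ) 1,
      ∫ x in (Metric.ball p R)ᶜ, (ex (-(ε⁻¹ • u t)) - 1 : M →ₘ[m] ℝ) x ^ 2 ∂m
        ≤ T * Real.exp (-(2 * C₀ + 2) / ε)) :
    ∀ s ∈ Ioc (0 : ℝ) 1, ∀ t ∈ Icc s 1, I ((sob m).Γ (u t) (u t))
      ≤ D ^ 2 * (m (Metric.ball p (R + 1))).toReal + (4 / s * (√(I (a ^ 2)) * √T) + 4 * T) := by
  intro s hs t ht
  have hε := hF.pair.hε
  have ht0 : 0 < t := lt_of_lt_of_le hs.1 ht.1
  have ht' : t ∈ Icc (0 : ℝ) 1 := ⟨ht0.le, ht.2⟩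
  have h0' : (0 : ℝ) ∈ Icc (0 : ℝ) 1 := ⟨le_rfl, zero_le_one⟩
  set h0 : M →ₘ[m] ℝ := ex (-(ε⁻¹ • u 0)) - 1 with hh0
  have hh02 : MemLp h0 2 m := by
    have := (hC.ex_A (f := -(ε⁻¹ • u 0)) (by
      have := hC.A_smul (-ε⁻¹) (hA 0 h0')
      rwa [neg_smul] at this)).1
    exact hC.memLp _ this
  have hτ : 0 < ε * (t - 0) / 2 := by rw [sub_zero]; positivity
  have e1 : ex (-(ε⁻¹ • u t)) - 1 = P (ε * (t - 0) / 2) h0 := hF.pair.g_eq t ht'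
  obtain ⟨l1, l2⟩ := hP.isLap (ε * (t - 0) / 2) hτ h0 hh02
  rw [← e1] at l1 l2
  set k := (sob m).lap (ex (-(ε⁻¹ • u t)) - 1) with hk
  have key := energy_le' hC hfin hε (hA t ht') ((hb t ht').mono fun x h => h.2) (hD t ht') l1 p R
  set Q := ∫ x in (Metric.ball p R)ᶜ, (ex (-(ε⁻¹ • u t)) - 1 : M →ₘ[m] ℝ) x ^ 2 ∂m with hQ
  have hQ0 : 0 ≤ Q := integral_nonneg fun x => sq_nonneg _
  have hQT := hT t ht'
  rw [← hQ] at hQT
  have hT0 : 0 ≤ T := by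
    by_contra hneg
    rw [not_le] at hneg
    have := mul_neg_of_neg_of_pos hneg (Real.exp_pos (-(2 * C₀ + 2) / ε))
    linarith
  -- `I (u 0 ^ 2) ≤ I (a ^ 2)`
  have hu0 : I (u 0 ^ 2) ≤ I (a ^ 2) := by
    rw [hF.init]
    have hε2 : 0 < ε ^ 2 := by positivity
    exact (hC.J_sq_le hε2 (hC.J_mem2 hε2 ha)).trans (hC.J_sq_le hε2 ha)
  have hC0 : 0 ≤ C₀ ∨ ∀ᵐ x ∂m, False := by
    by_cases h : 0 ≤ C₀
    · exact Or.inl h
    · right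
      filter_upwards [hb 0 h0'] with x hx
      linarith [hx.1, hx.2]
  have hexp : Real.exp (-(2 * C₀ + 2) / ε) = Real.exp (-(C₀ + 1) / ε) ^ 2 := by
    rw [← Real.exp_nat_mul]; congr 1; push_cast; ring
  have hI : I (k ^ 2) ≤ (2 / (ε * t) * (ε⁻¹ * Real.exp (C₀ / ε)) * √(I (a ^ 2))) ^ 2 := by
    refine l2.trans ?_
    rw [div_le_iff₀ (by positivity)]
    refine (init_le hε (hC.memLp _ (hA 0 h0').1) (hb 0 h0')).trans ?_
    have e2 : (2 / (ε * t) * (ε⁻¹ * Real.exp (C₀ / ε)) * √(I (a ^ 2))) ^ 2 * (ε * (t - 0) / 2) ^ 2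
        = (ε⁻¹ * Real.exp (C₀ / ε)) ^ 2 * I (a ^ 2) := by
      rw [mul_pow, Real.sq_sqrt (I_sq_nonneg a), sub_zero]
      field_simp
    rw [e2]
    exact mul_le_mul_of_nonneg_left hu0 (sq_nonneg _)
  have hsI : √(I (k ^ 2)) ≤ 2 / (ε * t) * (ε⁻¹ * Real.exp (C₀ / ε)) * √(I (a ^ 2)) := by
    refine (Real.sqrt_le_sqrt hI).trans ?_
    rw [Real.sqrt_sq (by positivity)]
  have hsQ : √Q ≤ √T * Real.exp (-(C₀ + 1) / ε) := by
    refine (Real.sqrt_le_sqrt hQT).trans ?_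
    rw [hexp, Real.sqrt_mul hT0, Real.sqrt_sq (Real.exp_pos _).le]
  have hprod : √(I (k ^ 2)) * √Q
      ≤ (2 / (ε * t) * (ε⁻¹ * Real.exp (C₀ / ε)) * √(I (a ^ 2))) * (√T * Real.exp (-(C₀ + 1) / ε)) :=
    mul_le_mul hsI hsQ (Real.sqrt_nonneg _) (by positivity)
  have hee : Real.exp (C₀ / ε) * Real.exp (-(C₀ + 1) / ε) ≤ 1 := by
    rw [← Real.exp_add]
    refine Real.exp_le_one_iff.2 ?_
    have : C₀ / ε + -(C₀ + 1) / ε = -(1 / ε) := by ring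
    rw [this]
    have : 0 < 1 / ε := by positivity
    linarith
  have hts : 2 * (2 / t) ≤ 4 / s := by
    have : 2 * (2 / t) = 4 / t := by ring
    rw [this]
    exact div_le_div_of_nonneg_left (by norm_num) hs.1 ht.1
  have f1 : ε ^ 2 * (2 * (√(I (k ^ 2)) * √Q)) ≤ 4 / s * (√(I (a ^ 2)) * √T) := by
    calc ε ^ 2 * (2 * (√(I (k ^ 2)) * √Q))
        ≤ ε ^ 2 * (2 * ((2 / (ε * t) * (ε⁻¹ * Real.exp (C₀ / ε)) * √(I (a ^ 2)))
            * (√T * Real.exp (-(C₀ + 1) / ε)))) := by gcongr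
      _ = (2 * (2 / t)) * (√(I (a ^ 2)) * √T)
            * (Real.exp (C₀ / ε) * Real.exp (-(C₀ + 1) / ε)) := by
          field_simp
      _ ≤ (2 * (2 / t)) * (√(I (a ^ 2)) * √T) * 1 := by gcongr
      _ ≤ 4 / s * (√(I (a ^ 2)) * √T) := by
          rw [mul_one]
          exact mul_le_mul_of_nonneg_right hts (by positivity)
  have hQ1 : Q ≤ T ∨ ∀ᵐ x ∂m, False := by
    rcases hC0 with h | h
    · left
      refine hQT.trans ?_
      have : Real.exp (-(2 * C₀ + 2) / ε) ≤ 1 := by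
        refine Real.exp_le_one_iff.2 ?_
        exact div_nonpos_of_nonpos_of_nonneg (by linarith) hε.le
      exact mul_le_of_le_one_right hT0 this
    · exact Or.inr h
  have hQ2 : Q ≤ T := by
    rcases hQ1 with h | h
    · exact h
    · have : Q = 0 := by
        rw [hQ]
        refine integral_eq_zero_of_ae (ae_restrict_of_ae ?_)
        filter_upwards [h] with x hx using hx.elim
      rw [this]; exact hT0
  have f2 : ε ^ 2 * (4 * Q) ≤ 4 * T := by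
    have : ε ^ 2 ≤ 1 := by nlinarith
    calc ε ^ 2 * (4 * Q) ≤ 1 * (4 * T) := by gcongr
      _ = 4 * T := one_mul _
  have : ε ^ 2 * (2 * (√(I (k ^ 2)) * √Q) + 4 * Q)
      = ε ^ 2 * (2 * (√(I (k ^ 2)) * √Q)) + ε ^ 2 * (4 * Q) := by ring
  rw [this] at key
  linarith

end metric

end Vale.Agent.P233.H939
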